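import Vale.Agent.P074.Defs

open MeasureTheory
open scoped ENNReal NNReal

namespace Vale.Agent.P074

variable {d : ℕ}

/-- A sufficient condition for optimality (a dual certificate supported on a set `D`). -/
theorem isOTMap_of_certificate (ρ : Measure (EuclideanSpace ℝ (Fin d))) [IsFiniteMeasure ρ]
    (T : EuclideanSpace ℝ (Fin d) → EuclideanSpace ℝ (Fin d)) (hT : Measurable T)
    (D : Set (EuclideanSpace ℝ (Fin d))) (hD : MeasurableSet D) (hTD : ∀ x, T x ∈ D)
    (lam : EuclideanSpace ℝ (Fin d) → ℝ) (hlam : Measurable lam) (M : ℝ)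
    (hM : ∀ y, |lam y| ≤ M)
    (h : ∀ x, ∀ y ∈ D, ‖x - T x‖ ^ 2 + lam (T x) ≤ ‖x - y‖ ^ 2 + lam y) :
    IsOTMap ρ (Measure.map T ρ) T := by
  refine ⟨hT, rfl, fun S hS hmap => ?_⟩
  have hSD : ∀ᵐ x ∂ρ, S x ∈ D := by
    have h1 : (Measure.map S ρ) Dᶜ = 0 := by
      rw [hmap, Measure.map_apply hT hD.compl]
      have : T ⁻¹' Dᶜ = ∅ := by
        ext x
        simp [hTD x]
      rw [this, measure_empty]
    rw [Measure.map_apply hS hD.compl] at h1
    have h2 : ∀ᵐ x ∂ρ, x ∉ S ⁻¹' Dᶜ := measure_eq_zero_iff_ae_notMem.mp h1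
    filter_upwards [h2] with x hx
    simpa using hx
  set lam' : EuclideanSpace ℝ (Fin d) → ℝ≥0∞ := fun y => ENNReal.ofReal (lam y + M) with hlam'
  have hlam'm : Measurable lam' := (hlam.add_const M).ennreal_ofReal
  have hnn : ∀ y, 0 ≤ lam y + M := fun y => by
    have := (abs_le.mp (hM y)).1
    linarith
  have key : ∫⁻ x, (ENNReal.ofReal (‖x - T x‖ ^ 2) + lam' (T x)) ∂ρ
      ≤ ∫⁻ x, (ENNReal.ofReal (‖x - S x‖ ^ 2) + lam' (S x)) ∂ρ := by
    refine lintegral_mono_ae ?_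
    filter_upwards [hSD] with x hx
    simp only [hlam']
    rw [← ENNReal.ofReal_add (by positivity) (hnn _), ← ENNReal.ofReal_add (by positivity) (hnn _)]
    refine ENNReal.ofReal_le_ofReal ?_
    have := h x (S x) hx
    linarith
  have hmT : Measurable fun x => lam' (T x) := hlam'm.comp hT
  have hmS : Measurable fun x => lam' (S x) := hlam'm.comp hS
  rw [lintegral_add_right _ hmT, lintegral_add_right _ hmS] at key
  have e1 : ∫⁻ x, lam' (T x) ∂ρ = ∫⁻ y, lam' y ∂(Measure.map T ρ) :=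
    (lintegral_map hlam'm hT).symm
  have e2 : ∫⁻ x, lam' (S x) ∂ρ = ∫⁻ y, lam' y ∂(Measure.map T ρ) := by
    rw [← hmap]
    exact (lintegral_map hlam'm hS).symm
  have hfin : ∫⁻ x, lam' (T x) ∂ρ ≠ ∞ := by
    have hle : ∫⁻ x, lam' (T x) ∂ρ ≤ ∫⁻ _x, ENNReal.ofReal (2 * M) ∂ρ := by
      refine lintegral_mono fun x => ?_
      simp only [hlam']
      refine ENNReal.ofReal_le_ofReal ?_
      have := (abs_le.mp (hM (T x))).2
      linarith
    rw [lintegral_const] at hle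
    exact ne_top_of_le_ne_top (ENNReal.mul_ne_top ENNReal.ofReal_ne_top (measure_ne_top _ _)) hle
  rw [e2, ← e1] at key
  exact (ENNReal.add_le_add_iff_right hfin).mp key

end Vale.Agent.P074
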