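import Vale.Agent.P074.Defs

open MeasureTheory Set
open scoped ENNReal NNReal

namespace Vale.Agent.P074

/-- A coordinate box in Euclidean space. -/
def boxSet {d : ℕ} (I : Fin d → Set ℝ) : Set (EuclideanSpace ℝ (Fin d)) :=
  {x | ∀ i, x i ∈ I i}

theorem volume_boxSet {d : ℕ} (I : Fin d → Set ℝ) :
    volume (boxSet I) = ∏ i, volume (I i) := by
  have h : boxSet I = (MeasurableEquiv.toLp 2 (Fin d → ℝ)).symm ⁻¹' (Set.pi Set.univ I) := by
    ext x
    simp [boxSet]
  rw [h, (EuclideanSpace.volume_preserving_symm_measurableEquiv_toLp (Fin d)).measure_preimage_equiv,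
    volume_pi_pi]

/-- The cube `[-1,1]^d`. -/
def cube (d : ℕ) : Set (EuclideanSpace ℝ (Fin d)) := boxSet fun _ => Icc (-1 : ℝ) 1

theorem mem_cube {d : ℕ} {x : EuclideanSpace ℝ (Fin d)} :
    x ∈ cube d ↔ ∀ i, x i ∈ Icc (-1 : ℝ) 1 := Iff.rfl

theorem volume_cube (d : ℕ) : volume (cube d) = 2 ^ d := by
  rw [cube, volume_boxSet]
  simp [Real.volume_Icc]
  norm_num

theorem isClosed_cube (d : ℕ) : IsClosed (cube d) := by
  have : cube d = ⋂ i : Fin d, (fun x : EuclideanSpace ℝ (Fin d) => x i) ⁻¹' Icc (-1 : ℝ) 1 := by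
    ext x
    simp [cube, boxSet]
  rw [this]
  refine isClosed_iInter fun i => isClosed_Icc.preimage ?_
  exact (EuclideanSpace.proj (𝕜 := ℝ) i).continuous

theorem isCompact_cube (d : ℕ) : IsCompact (cube d) := by
  refine Metric.isCompact_of_isClosed_isBounded (isClosed_cube d) ?_
  refine (Metric.isBounded_closedBall (x := (0 : EuclideanSpace ℝ (Fin d))) (r := √d)).subset ?_
  intro x hx
  rw [mem_closedBall_zero_iff, EuclideanSpace.norm_eq]
  refine Real.sqrt_le_sqrt ?_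
  calc ∑ i, ‖x i‖ ^ 2 ≤ ∑ _i : Fin d, (1 : ℝ) := by
        refine Finset.sum_le_sum fun i _ => ?_
        have := hx i
        rw [Real.norm_eq_abs, sq_abs]
        nlinarith [this.1, this.2]
    _ = d := by simp

theorem convex_cube (d : ℕ) : Convex ℝ (cube d) := by
  have : cube d = ⋂ i : Fin d, (EuclideanSpace.proj (𝕜 := ℝ) i) ⁻¹' Icc (-1 : ℝ) 1 := by
    ext x
    simp [cube, boxSet]
  rw [this]
  refine convex_iInter fun i => ?_
  exact (convex_Icc (-1 : ℝ) 1).linear_preimage (EuclideanSpace.proj (𝕜 := ℝ) i).toLinearMap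

theorem interior_cube_nonempty (d : ℕ) : (interior (cube d)).Nonempty := by
  refine ⟨0, ?_⟩
  rw [mem_interior]
  refine ⟨Metric.ball 0 1, ?_, Metric.isOpen_ball, by simp⟩
  intro x hx i
  rw [mem_ball_zero_iff] at hx
  have h1 : ‖x i‖ ≤ ‖x‖ := PiLp.norm_apply_le x i
  rw [Real.norm_eq_abs] at h1
  have h2 := abs_le.mp (h1.trans hx.le)
  exact ⟨h2.1, h2.2⟩

end Vale.Agent.P074
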