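import Vale.Agent.P074.Cube

open MeasureTheory Set
open scoped ENNReal NNReal

namespace Vale.Agent.P074

theorem unif_apply {d : ℕ} {K : Set (EuclideanSpace ℝ (Fin d))} (hK : MeasurableSet K)
    (s : Set (EuclideanSpace ℝ (Fin d))) : unif K s = (volume K)⁻¹ * volume (s ∩ K) := by
  simp [unif, Measure.restrict_apply' hK]

theorem isProbabilityMeasure_unif {d : ℕ} {K : Set (EuclideanSpace ℝ (Fin d))}
    (hK : MeasurableSet K) (h0 : volume K ≠ 0) (h1 : volume K ≠ ∞) :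
    IsProbabilityMeasure (unif K) := by
  constructor
  rw [unif_apply hK, univ_inter]
  exact ENNReal.inv_mul_cancel h0 h1

instance instProbCube (d : ℕ) : IsProbabilityMeasure (unif (cube d)) := by
  refine isProbabilityMeasure_unif (isClosed_cube d).measurableSet ?_ ?_
  · rw [volume_cube]; positivity
  · rw [volume_cube]; exact ENNReal.pow_ne_top (by simp)

/-- The part of the cube whose first two coordinates lie in `I0` and `I1`. -/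
def box2 (n : ℕ) (I0 I1 : Set ℝ) : Set (EuclideanSpace ℝ (Fin (n + 2))) :=
  {x | x ∈ cube (n + 2) ∧ x 0 ∈ I0 ∧ x 1 ∈ I1}

theorem box2_eq (n : ℕ) (I0 I1 : Set ℝ) (h0 : I0 ⊆ Icc (-1 : ℝ) 1) (h1 : I1 ⊆ Icc (-1 : ℝ) 1) :
    box2 n I0 I1 = boxSet (Fin.cons I0 (Fin.cons I1 fun _ => Icc (-1 : ℝ) 1) : Fin (n + 2) → Set ℝ) := by
  ext x
  simp only [box2, boxSet, cube, mem_ofPred_eq, Fin.forall_fin_succ, Fin.cons_zero, Fin.cons_succ]
  constructor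
  · rintro ⟨⟨_, _, h⟩, h2, h3⟩
    exact ⟨h2, h3, h⟩
  · rintro ⟨h2, h3, h⟩
    exact ⟨⟨h0 h2, h1 h3, h⟩, h2, h3⟩

theorem volume_box2 (n : ℕ) (I0 I1 : Set ℝ) (h0 : I0 ⊆ Icc (-1 : ℝ) 1) (h1 : I1 ⊆ Icc (-1 : ℝ) 1) :
    volume (box2 n I0 I1) = volume I0 * volume I1 * 2 ^ n := by
  rw [box2_eq n I0 I1 h0 h1, volume_boxSet, Fin.prod_univ_succ, Fin.prod_univ_succ]
  simp only [Fin.cons_zero, Fin.cons_succ, Finset.prod_const, Finset.card_univ, Fintype.card_fin,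
    Real.volume_Icc]
  norm_num
  ring

theorem unif_box2 (n : ℕ) (I0 I1 : Set ℝ) (h0 : I0 ⊆ Icc (-1 : ℝ) 1) (h1 : I1 ⊆ Icc (-1 : ℝ) 1) :
    unif (cube (n + 2)) (box2 n I0 I1) = volume I0 * volume I1 / 4 := by
  rw [unif_apply (isClosed_cube _).measurableSet]
  have : box2 n I0 I1 ∩ cube (n + 2) = box2 n I0 I1 := by
    apply inter_eq_left.mpr
    intro x hx
    exact hx.1
  rw [this, volume_box2 n I0 I1 h0 h1, volume_cube, pow_add]
  have h2 : (2 : ℝ≥0∞) ^ n ≠ 0 := by positivity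
  have h3 : (2 : ℝ≥0∞) ^ n ≠ ∞ := ENNReal.pow_ne_top (by simp)
  rw [ENNReal.mul_inv (Or.inl h2) (Or.inl h3), div_eq_mul_inv]
  have h4 : ((2 : ℝ≥0∞) ^ 2) = 4 := by norm_num
  rw [h4]
  calc ((2 : ℝ≥0∞) ^ n)⁻¹ * 4⁻¹ * (volume I0 * volume I1 * 2 ^ n)
      = (((2 : ℝ≥0∞) ^ n)⁻¹ * 2 ^ n) * (volume I0 * volume I1 * 4⁻¹) := by ring
    _ = volume I0 * volume I1 * 4⁻¹ := by rw [ENNReal.inv_mul_cancel h2 h3, one_mul]

end Vale.Agent.P074
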