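import Mathlib

open MeasureTheory
open scoped ENNReal NNReal

namespace Vale.Agent.P074

/-- The uniform probability measure `|K|⁻¹ 1_K dx` on a set `K` of `ℝ^d`. -/
noncomputable def unif {d : ℕ} (K : Set (EuclideanSpace ℝ (Fin d))) :
    Measure (EuclideanSpace ℝ (Fin d)) :=
  (volume K)⁻¹ • (volume.restrict K)

/-- The quadratic transport cost `∫ |x - T x|^2 dρ(x)` of a map `T`. -/
noncomputable def mapCost {d : ℕ} (ρ : Measure (EuclideanSpace ℝ (Fin d)))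
    (T : EuclideanSpace ℝ (Fin d) → EuclideanSpace ℝ (Fin d)) : ℝ≥0∞ :=
  ∫⁻ x, ENNReal.ofReal (‖x - T x‖ ^ 2) ∂ρ

/-- `T` is a quadratic optimal transport map from `ρ` to `μ`: a Borel map pushing `ρ` to `μ`
which minimizes the quadratic cost among all Borel maps pushing `ρ` to `μ`. -/
def IsOTMap {d : ℕ} (ρ μ : Measure (EuclideanSpace ℝ (Fin d)))
    (T : EuclideanSpace ℝ (Fin d) → EuclideanSpace ℝ (Fin d)) : Prop :=
  Measurable T ∧ Measure.map T ρ = μ ∧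
    ∀ S : EuclideanSpace ℝ (Fin d) → EuclideanSpace ℝ (Fin d),
      Measurable S → Measure.map S ρ = μ → mapCost ρ T ≤ mapCost ρ S

/-- The quadratic Wasserstein distance: `W₂(μ,ν) = (inf_π ∫ |y - z|^2 dπ(y,z))^(1/2)`, the infimum
over all couplings `π` of `μ` and `ν`. -/
noncomputable def W2 {d : ℕ} (μ ν : Measure (EuclideanSpace ℝ (Fin d))) : ℝ≥0∞ :=
  (⨅ π : {π : Measure (EuclideanSpace ℝ (Fin d) × EuclideanSpace ℝ (Fin d)) //
      Measure.map Prod.fst π = μ ∧ Measure.map Prod.snd π = ν},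
    ∫⁻ p, ENNReal.ofReal (‖p.1 - p.2‖ ^ 2) ∂π.1) ^ (1 / 2 : ℝ)

/-- The `L²(ρ)` distance `(∫ |T x - S x|^2 dρ(x))^(1/2)` of two maps. -/
noncomputable def L2dist {d : ℕ} (ρ : Measure (EuclideanSpace ℝ (Fin d)))
    (T S : EuclideanSpace ℝ (Fin d) → EuclideanSpace ℝ (Fin d)) : ℝ≥0∞ :=
  (∫⁻ x, ENNReal.ofReal (‖T x - S x‖ ^ 2) ∂ρ) ^ (1 / 2 : ℝ)

/-- The exponent `α` is admissible in dimension `d`: for every compact convex `K` with nonempty
interior and every nonempty compact `Y` there is a finite constant `C` with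
`‖T_μ - T_ν‖_{L²(ρ)} ≤ C W₂(μ,ν)^α` for all Borel probability measures `μ, ν` supported in `Y`,
where `ρ` is uniform on `K` and `T_μ`, `T_ν` are (any) optimal transport maps from `ρ`. -/
def Admissible (d : ℕ) (α : ℝ) : Prop :=
  ∀ K : Set (EuclideanSpace ℝ (Fin d)), IsCompact K → Convex ℝ K → (interior K).Nonempty →
  ∀ Y : Set (EuclideanSpace ℝ (Fin d)), IsCompact Y → Y.Nonempty →
  ∃ C : ℝ≥0, ∀ μ ν : Measure (EuclideanSpace ℝ (Fin d)),
    IsProbabilityMeasure μ → IsProbabilityMeasure ν → μ Yᶜ = 0 → ν Yᶜ = 0 →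
    ∀ T S : EuclideanSpace ℝ (Fin d) → EuclideanSpace ℝ (Fin d),
      IsOTMap (unif K) μ T → IsOTMap (unif K) ν S →
      L2dist (unif K) T S ≤ (C : ℝ≥0∞) * W2 μ ν ^ α

end Vale.Agent.P074
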