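import Vale.Agent.P074.Example

open MeasureTheory Set
open scoped ENNReal NNReal

namespace Vale.Agent.P074

/-- The point `(1, s, 0, …, 0)`. -/
noncomputable def zpt (n : ℕ) (s : ℝ) : EuclideanSpace ℝ (Fin (n + 2)) :=
  EuclideanSpace.single 0 1 + EuclideanSpace.single 1 s

theorem inner_zpt (n : ℕ) (x : EuclideanSpace ℝ (Fin (n + 2))) (s : ℝ) :
    inner ℝ x (zpt n s) = x 0 + s * x 1 := by
  simp [zpt, inner_add_right, EuclideanSpace.inner_single_right]

theorem norm_sq_zpt (n : ℕ) (s : ℝ) : ‖zpt n s‖ ^ 2 = 1 + s ^ 2 := by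
  rw [← real_inner_self_eq_norm_sq, inner_zpt]
  simp [zpt]
  ring

theorem zpt_ne_zero (n : ℕ) (s : ℝ) : zpt n s ≠ 0 := by
  intro h
  have := norm_sq_zpt n s
  rw [h] at this
  simp at this
  nlinarith [sq_nonneg s]

theorem norm_sq_zpt_sub (n : ℕ) (s : ℝ) : ‖zpt n (-s) - zpt n s‖ ^ 2 = 4 * s ^ 2 := by
  have : zpt n (-s) - zpt n s = EuclideanSpace.single 1 (-(2 * s)) := by
    ext i
    simp [zpt]
    by_cases hi : i = 1
    · subst hi; simp; ring
    · simp [hi]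
  rw [this, PiLp.norm_single, Real.norm_eq_abs, sq_abs]
  ring

theorem norm_zpt_le (n : ℕ) (s : ℝ) (hs : |s| ≤ 1) : ‖zpt n s‖ ≤ 2 := by
  have h := norm_sq_zpt n s
  have h2 : s ^ 2 ≤ 1 := by
    have := abs_le.mp hs
    nlinarith [this.1, this.2]
  nlinarith [norm_nonneg (zpt n s)]

theorem halfMap_refl1 (n : ℕ) (s t : ℝ) (x : EuclideanSpace ℝ (Fin (n + 2))) :
    halfMap (zpt n s) t (refl1 n x) = if t ≤ inner ℝ x (zpt n (-s)) then zpt n s else 0 := by
  unfold halfMap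
  rw [inner_zpt, inner_zpt, refl1_apply_one, refl1_apply_of_ne n x 0 (by simp)]
  have : x 0 + s * -x 1 = x 0 + -s * x 1 := by ring
  rw [this]

theorem unif_le_of_inter_subset {d : ℕ} {K : Set (EuclideanSpace ℝ (Fin d))} (hK : MeasurableSet K)
    {s t : Set (EuclideanSpace ℝ (Fin d))} (h : s ∩ K ⊆ t) : unif K s ≤ unif K t := by
  rw [unif_apply hK, unif_apply hK]
  exact mul_le_mul_right (measure_mono (subset_inter h inter_subset_right)) _

/-- Upper bound for the Wasserstein distance of the two targets. -/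
theorem W2_example_le (n : ℕ) (δ : ℝ) (h0 : 0 < δ) (h1 : δ ≤ 1 / 2) :
    W2 (Measure.map (halfMap (zpt n (-δ)) (1 - δ)) (unif (cube (n + 2))))
      (Measure.map (halfMap (zpt n δ) (1 - δ)) (unif (cube (n + 2))))
      ≤ ENNReal.ofReal (4 * δ ^ 3) ^ (1 / 2 : ℝ) := by
  set ρ := unif (cube (n + 2)) with hρ
  have hσ : Measurable (refl1 n) := (refl1 n).continuous.measurable
  have e : Measure.map (halfMap (zpt n δ) (1 - δ)) ρ
      = Measure.map (fun x => halfMap (zpt n δ) (1 - δ) (refl1 n x)) ρ := by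
    conv_lhs => rw [hρ, ← map_refl1_unif n, ← hρ]
    rw [Measure.map_map (measurable_halfMap _ _) hσ]
    rfl
  rw [e]
  refine (W2_map_le ρ _ _ (measurable_halfMap _ _) ((measurable_halfMap _ _).comp hσ)).trans ?_
  unfold L2dist
  refine ENNReal.rpow_le_rpow ?_ (by norm_num)
  set B : Set (EuclideanSpace ℝ (Fin (n + 2))) := {x | 1 - δ ≤ inner ℝ x (zpt n (-δ))} with hB
  have hBm : MeasurableSet B := measurableSet_half _ _
  have hle : ∀ x, ENNReal.ofReal (‖halfMap (zpt n (-δ)) (1 - δ) x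
      - halfMap (zpt n δ) (1 - δ) (refl1 n x)‖ ^ 2)
      ≤ B.indicator (fun _ => ENNReal.ofReal (4 * δ ^ 2)) x := by
    intro x
    rw [halfMap_refl1]
    unfold halfMap
    by_cases hx : 1 - δ ≤ inner ℝ x (zpt n (-δ))
    · have hxB : x ∈ B := hx
      rw [if_pos hx, if_pos hx, indicator_of_mem hxB, norm_sq_zpt_sub]
    · have hxB : x ∉ B := hx
      rw [if_neg hx, if_neg hx, indicator_of_notMem hxB]
      simp
  refine (lintegral_mono hle).trans ?_
  rw [lintegral_indicator_const hBm]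
  have hBle : ρ B ≤ ENNReal.ofReal δ := by
    have hsub : B ∩ cube (n + 2) ⊆ box2 n (Icc (1 - 2 * δ) 1) (Icc (-1) 1) := by
      rintro x ⟨hxB, hxK⟩
      have hxB' : 1 - δ ≤ inner ℝ x (zpt n (-δ)) := hxB
      rw [inner_zpt] at hxB'
      have k0 := hxK 0
      have k1 := hxK 1
      refine ⟨hxK, ⟨?_, k0.2⟩, k1⟩
      nlinarith [k1.1, k1.2]
    refine (unif_le_of_inter_subset (isClosed_cube _).measurableSet hsub).trans ?_
    rw [unif_box2 n _ _ (Icc_subset_Icc (by linarith) le_rfl) le_rfl, Real.volume_Icc,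
      Real.volume_Icc]
    have e1 : (1 : ℝ) - (1 - 2 * δ) = 2 * δ := by ring
    have e2 : (1 : ℝ) - (-1) = 2 := by ring
    rw [e1, e2, ← ENNReal.ofReal_mul (by positivity)]
    have e3 : (4 : ℝ≥0∞) = ENNReal.ofReal 4 := by simp
    rw [e3, ← ENNReal.ofReal_div_of_pos (by norm_num)]
    refine ENNReal.ofReal_le_ofReal ?_
    linarith
  calc ENNReal.ofReal (4 * δ ^ 2) * ρ B ≤ ENNReal.ofReal (4 * δ ^ 2) * ENNReal.ofReal δ := by
        gcongr
    _ = ENNReal.ofReal (4 * δ ^ 3) := by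
        rw [← ENNReal.ofReal_mul (by positivity)]
        congr 1
        ring

/-- Lower bound for the `L²` distance of the two optimal maps. -/
theorem L2dist_example_ge (n : ℕ) (δ : ℝ) (h0 : 0 < δ) (h1 : δ ≤ 1 / 2) :
    ENNReal.ofReal (δ / 8) ^ (1 / 2 : ℝ) ≤
      L2dist (unif (cube (n + 2))) (halfMap (zpt n (-δ)) (1 - δ)) (halfMap (zpt n δ) (1 - δ)) := by
  set ρ := unif (cube (n + 2)) with hρ
  unfold L2dist
  refine ENNReal.rpow_le_rpow ?_ (by norm_num)
  set f : EuclideanSpace ℝ (Fin (n + 2)) → ℝ≥0∞ := fun x =>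
    ENNReal.ofReal (‖halfMap (zpt n (-δ)) (1 - δ) x - halfMap (zpt n δ) (1 - δ) x‖ ^ 2) with hf
  have hfm : Measurable f :=
    (((measurable_halfMap _ _).sub (measurable_halfMap _ _)).norm.pow_const 2).ennreal_ofReal
  have hmarkov : 1 * ρ {x | 1 ≤ f x} ≤ ∫⁻ x, f x ∂ρ := mul_meas_ge_le_lintegral hfm 1
  rw [one_mul] at hmarkov
  refine le_trans ?_ hmarkov
  have hsub : box2 n (Ico (1 - 3 * δ / 2) (1 - δ / 2)) (Icc (1 / 2) 1) ⊆ {x | 1 ≤ f x} := by
    rintro x ⟨-, hx0, hx1⟩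
    have hp : 1 - δ ≤ inner ℝ x (zpt n δ) := by
      rw [inner_zpt]
      nlinarith [hx0.1, hx1.1]
    have hm : ¬ (1 - δ ≤ inner ℝ x (zpt n (-δ))) := by
      rw [inner_zpt, not_le]
      nlinarith [hx0.2, hx1.1]
    show 1 ≤ f x
    simp only [hf, halfMap]
    rw [if_pos hp, if_neg hm, zero_sub, norm_neg, norm_sq_zpt]
    rw [← ENNReal.ofReal_one]
    refine ENNReal.ofReal_le_ofReal ?_
    nlinarith [sq_nonneg δ]
  refine le_trans ?_ (measure_mono hsub)
  rw [hρ, unif_box2 n _ _ (fun y hy => ⟨by linarith [hy.1], by linarith [hy.2]⟩)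
    (Icc_subset_Icc (by norm_num) le_rfl), Real.volume_Ico, Real.volume_Icc]
  have e1 : (1 : ℝ) - δ / 2 - (1 - 3 * δ / 2) = δ := by ring
  have e2 : (1 : ℝ) - 1 / 2 = 1 / 2 := by ring
  rw [e1, e2, ← ENNReal.ofReal_mul (by positivity)]
  have e3 : (4 : ℝ≥0∞) = ENNReal.ofReal 4 := by simp
  rw [e3, ← ENNReal.ofReal_div_of_pos (by norm_num)]
  refine ENNReal.ofReal_le_ofReal ?_
  linarith

end Vale.Agent.P074
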