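import Vale.Agent.P074.Certificate

open MeasureTheory
open scoped ENNReal NNReal

namespace Vale.Agent.P074

variable {d : ℕ}

/-- The two-valued map equal to `z` on the half space `{t ≤ ⟨x, z⟩}` and to `0` elsewhere. -/
noncomputable def halfMap (z : EuclideanSpace ℝ (Fin d)) (t : ℝ) :
    EuclideanSpace ℝ (Fin d) → EuclideanSpace ℝ (Fin d) :=
  fun x => if t ≤ inner ℝ x z then z else 0

theorem measurableSet_half (z : EuclideanSpace ℝ (Fin d)) (t : ℝ) :
    MeasurableSet {x : EuclideanSpace ℝ (Fin d) | t ≤ inner ℝ x z} := by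
  have hc : Continuous fun x : EuclideanSpace ℝ (Fin d) => inner ℝ x z :=
    continuous_id.inner continuous_const
  exact measurableSet_le measurable_const hc.measurable

theorem measurable_halfMap (z : EuclideanSpace ℝ (Fin d)) (t : ℝ) :
    Measurable (halfMap z t) :=
  Measurable.ite (measurableSet_half z t) measurable_const measurable_const

theorem isOTMap_halfMap (ρ : Measure (EuclideanSpace ℝ (Fin d))) [IsFiniteMeasure ρ]
    (z : EuclideanSpace ℝ (Fin d)) (hz : z ≠ 0) (t : ℝ) :
    IsOTMap ρ (Measure.map (halfMap z t) ρ) (halfMap z t) := by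
  classical
  refine isOTMap_of_certificate ρ (halfMap z t) (measurable_halfMap z t) {0, z}
    ((measurableSet_singleton z).insert 0) ?_
    (fun y => if y = z then 2 * t - ‖z‖ ^ 2 else 0) ?_ |2 * t - ‖z‖ ^ 2| ?_ ?_
  · intro x
    unfold halfMap
    split_ifs <;> simp
  · exact Measurable.ite (measurableSet_singleton z) measurable_const measurable_const
  · intro y
    split_ifs
    · exact le_rfl
    · simp
  · intro x y hy
    have hexp : ‖x - z‖ ^ 2 = ‖x‖ ^ 2 - 2 * inner ℝ x z + ‖z‖ ^ 2 := norm_sub_sq_real x z
    have hz' : (0 : EuclideanSpace ℝ (Fin d)) ≠ z := fun h => hz h.symm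
    have hy2 : y = 0 ∨ y = z := by simpa using hy
    by_cases h1 : t ≤ inner ℝ x z
    · have hT : halfMap z t x = z := by simp [halfMap, h1]
      rw [hT]
      rcases hy2 with rfl | rfl
      · rw [if_pos rfl, if_neg hz', sub_zero, hexp]; linarith
      · exact le_rfl
    · have hT : halfMap z t x = 0 := by simp [halfMap, h1]
      rw [hT]
      rcases hy2 with rfl | rfl
      · exact le_rfl
      · rw [if_pos rfl, if_neg hz', sub_zero, hexp]
        push Not at h1
        linarith

end Vale.Agent.P074
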