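import Vale.Agent.P074.CubeMeasure
import Vale.Agent.P074.HalfSpace

open MeasureTheory Set
open scoped ENNReal NNReal

namespace Vale.Agent.P074

/-- `W₂` between two push-forwards of the same measure is at most the `L²` distance of the maps. -/
theorem W2_map_le {d : ℕ} (ρ : Measure (EuclideanSpace ℝ (Fin d)))
    (f g : EuclideanSpace ℝ (Fin d) → EuclideanSpace ℝ (Fin d)) (hf : Measurable f)
    (hg : Measurable g) : W2 (Measure.map f ρ) (Measure.map g ρ) ≤ L2dist ρ f g := by
  unfold W2 L2dist
  refine ENNReal.rpow_le_rpow ?_ (by norm_num)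
  have hfg : Measurable fun x => (f x, g x) := hf.prodMk hg
  have h1 : Measure.map Prod.fst (Measure.map (fun x => (f x, g x)) ρ) = Measure.map f ρ := by
    rw [Measure.map_map measurable_fst hfg]
    rfl
  have h2 : Measure.map Prod.snd (Measure.map (fun x => (f x, g x)) ρ) = Measure.map g ρ := by
    rw [Measure.map_map measurable_snd hfg]
    rfl
  refine (iInf_le _ ⟨Measure.map (fun x => (f x, g x)) ρ, h1, h2⟩).trans ?_
  have hm : Measurable fun p : EuclideanSpace ℝ (Fin d) × EuclideanSpace ℝ (Fin d) =>
      ENNReal.ofReal (‖p.1 - p.2‖ ^ 2) :=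
    ((measurable_fst.sub measurable_snd).norm.pow_const 2).ennreal_ofReal
  exact (lintegral_map hm hfg).le

/-- The reflection `x₁ ↦ -x₁`. -/
noncomputable def refl1 (n : ℕ) :
    EuclideanSpace ℝ (Fin (n + 2)) ≃ₗᵢ[ℝ] EuclideanSpace ℝ (Fin (n + 2)) :=
  LinearIsometryEquiv.piLpCongrRight 2
    (fun i : Fin (n + 2) => if i = 1 then LinearIsometryEquiv.neg ℝ else LinearIsometryEquiv.refl ℝ ℝ)

theorem refl1_apply_one (n : ℕ) (x : EuclideanSpace ℝ (Fin (n + 2))) : refl1 n x 1 = - x 1 := by
  simp [refl1]

theorem refl1_apply_of_ne (n : ℕ) (x : EuclideanSpace ℝ (Fin (n + 2))) (i : Fin (n + 2))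
    (hi : i ≠ 1) : refl1 n x i = x i := by
  simp [refl1, hi]

theorem refl1_preimage_cube (n : ℕ) : refl1 n ⁻¹' cube (n + 2) = cube (n + 2) := by
  ext x
  simp only [mem_preimage, mem_cube]
  constructor
  · intro h i
    by_cases hi : i = 1
    · subst hi
      have := h 1
      rw [refl1_apply_one] at this
      exact ⟨by linarith [this.2], by linarith [this.1]⟩
    · have := h i
      rwa [refl1_apply_of_ne n x i hi] at this
  · intro h i
    by_cases hi : i = 1
    · subst hi
      have := h 1
      rw [refl1_apply_one]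
      exact ⟨by linarith [this.2], by linarith [this.1]⟩
    · rw [refl1_apply_of_ne n x i hi]
      exact h i

theorem map_refl1_unif (n : ℕ) :
    Measure.map (refl1 n) (unif (cube (n + 2))) = unif (cube (n + 2)) := by
  have h1 : MeasurePreserving (refl1 n) volume volume := (refl1 n).measurePreserving
  have h2 := h1.restrict_preimage (isClosed_cube (n + 2)).measurableSet
  rw [refl1_preimage_cube] at h2
  unfold unif
  rw [Measure.map_smul, h2.map_eq]

end Vale.Agent.P074
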