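import Vale.Agent.P074.Estimates

open MeasureTheory Set
open scoped ENNReal NNReal

namespace Vale.Agent.P074

variable {d : ℕ}

/-- Uniqueness from a dual certificate which is strict almost everywhere. -/
theorem ae_eq_of_certificate (ρ : Measure (EuclideanSpace ℝ (Fin d))) [IsFiniteMeasure ρ]
    (T : EuclideanSpace ℝ (Fin d) → EuclideanSpace ℝ (Fin d)) (hT : Measurable T)
    (D : Set (EuclideanSpace ℝ (Fin d))) (hD : MeasurableSet D) (hTD : ∀ x, T x ∈ D)
    (lam : EuclideanSpace ℝ (Fin d) → ℝ) (hlam : Measurable lam) (M : ℝ)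
    (hM : ∀ y, |lam y| ≤ M)
    (h : ∀ x, ∀ y ∈ D, ‖x - T x‖ ^ 2 + lam (T x) ≤ ‖x - y‖ ^ 2 + lam y)
    (hstrict : ∀ᵐ x ∂ρ, ∀ y ∈ D, y ≠ T x → ‖x - T x‖ ^ 2 + lam (T x) < ‖x - y‖ ^ 2 + lam y)
    (hfin : mapCost ρ T ≠ ∞) :
    ∀ S : EuclideanSpace ℝ (Fin d) → EuclideanSpace ℝ (Fin d),
      IsOTMap ρ (Measure.map T ρ) S → S =ᵐ[ρ] T := by
  rintro S ⟨hS, hmap, hopt⟩
  have hcost : mapCost ρ S ≤ mapCost ρ T := hopt T hT rfl
  have hSD : ∀ᵐ x ∂ρ, S x ∈ D := by
    have h1 : (Measure.map S ρ) Dᶜ = 0 := by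
      rw [hmap, Measure.map_apply hT hD.compl]
      have : T ⁻¹' Dᶜ = ∅ := by
        ext x
        simp [hTD x]
      rw [this, measure_empty]
    rw [Measure.map_apply hS hD.compl] at h1
    have h2 : ∀ᵐ x ∂ρ, x ∉ S ⁻¹' Dᶜ := measure_eq_zero_iff_ae_notMem.mp h1
    filter_upwards [h2] with x hx
    simpa using hx
  set lam' : EuclideanSpace ℝ (Fin d) → ℝ≥0∞ := fun y => ENNReal.ofReal (lam y + M) with hlam'
  have hlam'm : Measurable lam' := (hlam.add_const M).ennreal_ofReal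
  have hnn : ∀ y, 0 ≤ lam y + M := fun y => by
    have := (abs_le.mp (hM y)).1
    linarith
  have hmT : Measurable fun x => lam' (T x) := hlam'm.comp hT
  have hmS : Measurable fun x => lam' (S x) := hlam'm.comp hS
  have e1 : ∫⁻ x, lam' (T x) ∂ρ = ∫⁻ y, lam' y ∂(Measure.map T ρ) :=
    (lintegral_map hlam'm hT).symm
  have e2 : ∫⁻ x, lam' (S x) ∂ρ = ∫⁻ y, lam' y ∂(Measure.map T ρ) := by
    rw [← hmap]
    exact (lintegral_map hlam'm hS).symm
  have hfinl : ∫⁻ x, lam' (T x) ∂ρ ≠ ∞ := by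
    have hle : ∫⁻ x, lam' (T x) ∂ρ ≤ ∫⁻ _x, ENNReal.ofReal (2 * M) ∂ρ := by
      refine lintegral_mono fun x => ?_
      simp only [hlam']
      refine ENNReal.ofReal_le_ofReal ?_
      have := (abs_le.mp (hM (T x))).2
      linarith
    rw [lintegral_const] at hle
    exact ne_top_of_le_ne_top (ENNReal.mul_ne_top ENNReal.ofReal_ne_top (measure_ne_top _ _)) hle
  have hle : (fun x => ENNReal.ofReal (‖x - T x‖ ^ 2) + lam' (T x))
      ≤ᵐ[ρ] fun x => ENNReal.ofReal (‖x - S x‖ ^ 2) + lam' (S x) := by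
    filter_upwards [hSD] with x hx
    simp only [hlam']
    rw [← ENNReal.ofReal_add (by positivity) (hnn _), ← ENNReal.ofReal_add (by positivity) (hnn _)]
    refine ENNReal.ofReal_le_ofReal ?_
    have := h x (S x) hx
    linarith
  have hIT : ∫⁻ x, (ENNReal.ofReal (‖x - T x‖ ^ 2) + lam' (T x)) ∂ρ
      = mapCost ρ T + ∫⁻ x, lam' (T x) ∂ρ := lintegral_add_right _ hmT
  have hIS : ∫⁻ x, (ENNReal.ofReal (‖x - S x‖ ^ 2) + lam' (S x)) ∂ρ
      = mapCost ρ S + ∫⁻ x, lam' (T x) ∂ρ := by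
    rw [e1, ← e2]
    exact lintegral_add_right _ hmS
  have hmeasS : Measurable fun x => ENNReal.ofReal (‖x - S x‖ ^ 2) + lam' (S x) :=
    (((measurable_id.sub hS).norm.pow_const 2).ennreal_ofReal).add hmS
  have heq := ae_eq_of_ae_le_of_lintegral_le hle
    (by rw [hIT]; exact ENNReal.add_ne_top.mpr ⟨hfin, hfinl⟩) hmeasS.aemeasurable
    (by rw [hIT, hIS]; exact add_le_add_left hcost _)
  filter_upwards [heq, hSD, hstrict] with x hx hxD hxs
  by_contra hne
  have hlt := hxs (S x) hxD hne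
  simp only [hlam'] at hx
  rw [← ENNReal.ofReal_add (by positivity) (hnn _),
    ← ENNReal.ofReal_add (by positivity) (hnn _)] at hx
  have h0 : 0 ≤ ‖x - T x‖ ^ 2 + (lam (T x) + M) := add_nonneg (by positivity) (hnn _)
  have h0' : 0 ≤ ‖x - S x‖ ^ 2 + (lam (S x) + M) := add_nonneg (by positivity) (hnn _)
  have := (ENNReal.ofReal_eq_ofReal_iff h0 h0').mp hx
  linarith

theorem L2dist_congr {ρ : Measure (EuclideanSpace ℝ (Fin d))}
    {T T' S S' : EuclideanSpace ℝ (Fin d) → EuclideanSpace ℝ (Fin d)}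
    (hT : T =ᵐ[ρ] T') (hS : S =ᵐ[ρ] S') : L2dist ρ T S = L2dist ρ T' S' := by
  unfold L2dist
  congr 1
  refine lintegral_congr_ae ?_
  filter_upwards [hT, hS] with x h1 h2
  rw [h1, h2]

theorem volume_hyperplane_null (z : EuclideanSpace ℝ (Fin d)) (hz : z ≠ 0) (t : ℝ) :
    volume {x : EuclideanSpace ℝ (Fin d) | inner ℝ x z = t} = 0 := by
  let s : AffineSubspace ℝ (EuclideanSpace ℝ (Fin d)) :=
    { carrier := {x | inner ℝ x z = t}
      smul_vsub_vadd_mem' := by
        intro c p1 p2 p3 h1 h2 h3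
        simp only [mem_ofPred_eq, vsub_eq_sub, vadd_eq_add] at *
        rw [inner_add_left, inner_smul_left, inner_sub_left, h1, h2, h3]
        simp }
  have hs : s ≠ ⊤ := by
    intro htop
    have h0 : (0 : EuclideanSpace ℝ (Fin d)) ∈ s := by rw [htop]; exact AffineSubspace.mem_top _ _ _
    have h1 : z ∈ s := by rw [htop]; exact AffineSubspace.mem_top _ _ _
    have h0' : inner ℝ (0 : EuclideanSpace ℝ (Fin d)) z = t := h0
    have h1' : inner ℝ z z = t := h1
    rw [inner_zero_left] at h0'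
    rw [← h0'] at h1'
    exact hz (inner_self_eq_zero.mp h1')
  exact Measure.addHaar_affineSubspace volume s hs

theorem unif_hyperplane_null (K : Set (EuclideanSpace ℝ (Fin d)))
    (z : EuclideanSpace ℝ (Fin d)) (hz : z ≠ 0) (t : ℝ) :
    unif K {x : EuclideanSpace ℝ (Fin d) | inner ℝ x z = t} = 0 := by
  unfold unif
  rw [Measure.smul_apply]
  have : (volume.restrict K) {x : EuclideanSpace ℝ (Fin d) | inner ℝ x z = t} = 0 :=
    le_antisymm ((Measure.restrict_apply_le _ _).trans (volume_hyperplane_null z hz t).le)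
      zero_le
  rw [this]
  simp

theorem mapCost_ne_top (ρ : Measure (EuclideanSpace ℝ (Fin d))) [IsFiniteMeasure ρ]
    (T : EuclideanSpace ℝ (Fin d) → EuclideanSpace ℝ (Fin d)) (R : ℝ)
    (h : ∀ᵐ x ∂ρ, ‖x - T x‖ ≤ R) : mapCost ρ T ≠ ∞ := by
  unfold mapCost
  have hle : ∫⁻ x, ENNReal.ofReal (‖x - T x‖ ^ 2) ∂ρ ≤ ∫⁻ _x, ENNReal.ofReal (R ^ 2) ∂ρ := by
    refine lintegral_mono_ae ?_
    filter_upwards [h] with x hx
    refine ENNReal.ofReal_le_ofReal ?_
    exact pow_le_pow_left₀ (norm_nonneg _) hx 2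
  rw [lintegral_const] at hle
  exact ne_top_of_le_ne_top (ENNReal.mul_ne_top ENNReal.ofReal_ne_top (measure_ne_top _ _)) hle

theorem ae_unif_mem {K : Set (EuclideanSpace ℝ (Fin d))} (hK : MeasurableSet K) :
    ∀ᵐ x ∂(unif K), x ∈ K := by
  rw [ae_iff, unif_apply hK]
  have : {a | a ∉ K} ∩ K = ∅ := by
    ext x
    simp
  rw [this, measure_empty, mul_zero]

theorem mapCost_unif_ne_top {K : Set (EuclideanSpace ℝ (Fin d))} (hK : MeasurableSet K)
    [IsFiniteMeasure (unif K)] (hb : Bornology.IsBounded K)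
    (T : EuclideanSpace ℝ (Fin d) → EuclideanSpace ℝ (Fin d)) (R : ℝ) (hT : ∀ x, ‖T x‖ ≤ R) :
    mapCost (unif K) T ≠ ∞ := by
  obtain ⟨R', hR'⟩ := hb.exists_norm_le
  refine mapCost_ne_top (unif K) T (R' + R) ?_
  filter_upwards [ae_unif_mem hK] with x hx
  exact (norm_sub_le _ _).trans (add_le_add (hR' x hx) (hT x))

/-- Uniqueness of the optimal map for the two-atom target of a half-space map. -/
theorem ae_eq_halfMap (ρ : Measure (EuclideanSpace ℝ (Fin d))) [IsFiniteMeasure ρ]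
    (z : EuclideanSpace ℝ (Fin d)) (hz : z ≠ 0) (t : ℝ)
    (hnull : ρ {x : EuclideanSpace ℝ (Fin d) | inner ℝ x z = t} = 0)
    (hfin : mapCost ρ (halfMap z t) ≠ ∞) :
    ∀ S : EuclideanSpace ℝ (Fin d) → EuclideanSpace ℝ (Fin d),
      IsOTMap ρ (Measure.map (halfMap z t) ρ) S → S =ᵐ[ρ] halfMap z t := by
  classical
  have hz' : (0 : EuclideanSpace ℝ (Fin d)) ≠ z := fun h => hz h.symm
  refine ae_eq_of_certificate ρ (halfMap z t) (measurable_halfMap z t) {0, z}
    ((measurableSet_singleton z).insert 0) ?_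
    (fun y => if y = z then 2 * t - ‖z‖ ^ 2 else 0) ?_ |2 * t - ‖z‖ ^ 2| ?_ ?_ ?_ hfin
  · intro x
    unfold halfMap
    split_ifs <;> simp
  · exact Measurable.ite (measurableSet_singleton z) measurable_const measurable_const
  · intro y
    split_ifs
    · exact le_rfl
    · simp
  · intro x y hy
    have hexp : ‖x - z‖ ^ 2 = ‖x‖ ^ 2 - 2 * inner ℝ x z + ‖z‖ ^ 2 := norm_sub_sq_real x z
    have hy2 : y = 0 ∨ y = z := by simpa using hy
    by_cases h1 : t ≤ inner ℝ x z
    · have hT : halfMap z t x = z := by simp [halfMap, h1]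
      rw [hT]
      rcases hy2 with rfl | rfl
      · rw [if_pos rfl, if_neg hz', sub_zero, hexp]; linarith
      · exact le_rfl
    · have hT : halfMap z t x = 0 := by simp [halfMap, h1]
      rw [hT]
      rcases hy2 with rfl | rfl
      · exact le_rfl
      · rw [if_pos rfl, if_neg hz', sub_zero, hexp]
        push Not at h1
        linarith
  · have hne : ∀ᵐ x ∂ρ, x ∉ {x : EuclideanSpace ℝ (Fin d) | inner ℝ x z = t} :=
      measure_eq_zero_iff_ae_notMem.mp hnull
    filter_upwards [hne] with x hx y hy hyT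
    have hx' : inner ℝ x z ≠ t := hx
    have hexp : ‖x - z‖ ^ 2 = ‖x‖ ^ 2 - 2 * inner ℝ x z + ‖z‖ ^ 2 := norm_sub_sq_real x z
    have hy2 : y = 0 ∨ y = z := by simpa using hy
    by_cases h1 : t ≤ inner ℝ x z
    · have hT : halfMap z t x = z := by simp [halfMap, h1]
      have h2 : t < inner ℝ x z := lt_of_le_of_ne h1 (Ne.symm hx')
      rw [hT] at hyT ⊢
      rcases hy2 with rfl | rfl
      · rw [if_pos rfl, if_neg hz', sub_zero, hexp]; linarith
      · exact absurd rfl hyT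
    · have hT : halfMap z t x = 0 := by simp [halfMap, h1]
      rw [hT] at hyT ⊢
      rcases hy2 with rfl | rfl
      · exact absurd rfl hyT
      · rw [if_pos rfl, if_neg hz', sub_zero, hexp]
        push Not at h1
        linarith

theorem norm_halfMap_le (z : EuclideanSpace ℝ (Fin d)) (t : ℝ) (x : EuclideanSpace ℝ (Fin d)) :
    ‖halfMap z t x‖ ≤ ‖z‖ := by
  unfold halfMap
  split_ifs
  · exact le_rfl
  · simp

/-- Uniqueness of the optimal map for the half-space targets when the source is uniform on a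
bounded measurable set. -/
theorem ae_eq_halfMap_unif {K : Set (EuclideanSpace ℝ (Fin d))} (hK : MeasurableSet K)
    [IsFiniteMeasure (unif K)] (hb : Bornology.IsBounded K)
    (z : EuclideanSpace ℝ (Fin d)) (hz : z ≠ 0) (t : ℝ) :
    ∀ S : EuclideanSpace ℝ (Fin d) → EuclideanSpace ℝ (Fin d),
      IsOTMap (unif K) (Measure.map (halfMap z t) (unif K)) S → S =ᵐ[unif K] halfMap z t :=
  ae_eq_halfMap (unif K) z hz t (unif_hyperplane_null K z hz t)
    (mapCost_unif_ne_top hK hb _ ‖z‖ (norm_halfMap_le z t))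

/-- The strong form of the cube example: the lower bound holds for all optimal maps. -/
theorem L2dist_example_ge_all (n : ℕ) (δ : ℝ) (h0 : 0 < δ) (h1 : δ ≤ 1 / 2)
    (T S : EuclideanSpace ℝ (Fin (n + 2)) → EuclideanSpace ℝ (Fin (n + 2)))
    (hT : IsOTMap (unif (cube (n + 2)))
      (Measure.map (halfMap (zpt n (-δ)) (1 - δ)) (unif (cube (n + 2)))) T)
    (hS : IsOTMap (unif (cube (n + 2)))
      (Measure.map (halfMap (zpt n δ) (1 - δ)) (unif (cube (n + 2)))) S) :
    ENNReal.ofReal (δ / 8) ^ (1 / 2 : ℝ) ≤ L2dist (unif (cube (n + 2))) T S := by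
  have hK := (isClosed_cube (n + 2)).measurableSet
  have hb := (isCompact_cube (n + 2)).isBounded
  rw [L2dist_congr (ae_eq_halfMap_unif hK hb _ (zpt_ne_zero n _) _ T hT)
    (ae_eq_halfMap_unif hK hb _ (zpt_ne_zero n _) _ S hS)]
  exact L2dist_example_ge n δ h0 h1

end Vale.Agent.P074
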