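import Mathlib

open scoped ENNReal NNReal

namespace Vale.Agent.P074

theorem exists_delta_real (α : ℝ) (hα : 1 / 3 < α) (C : ℝ) (hC : 0 ≤ C) :
    ∃ δ : ℝ, 0 < δ ∧ δ ≤ 1 / 2 ∧ C * ((4 * δ ^ 3) ^ (1 / 2 : ℝ)) ^ α < (δ / 8) ^ (1 / 2 : ℝ) := by
  set β : ℝ := (3 * α - 1) / 2 with hβ
  have hβpos : 0 < β := by rw [hβ]; linarith
  set M : ℝ := C * (4 : ℝ) ^ (α / 2) * (8 : ℝ) ^ (1 / 2 : ℝ) + 1 with hM
  have h4 : 0 < (4 : ℝ) ^ (α / 2) := Real.rpow_pos_of_pos (by norm_num) _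
  have h8 : 0 < (8 : ℝ) ^ (1 / 2 : ℝ) := Real.rpow_pos_of_pos (by norm_num) _
  have hMpos : 0 < M := by rw [hM]; positivity
  set δ : ℝ := min (1 / 2) ((1 / M) ^ (1 / β)) with hδ
  have hδpos : 0 < δ := lt_min (by norm_num) (Real.rpow_pos_of_pos (by positivity) _)
  have hδβ : δ ^ β ≤ 1 / M := by
    calc δ ^ β ≤ ((1 / M) ^ (1 / β)) ^ β :=
          Real.rpow_le_rpow hδpos.le (min_le_right _ _) hβpos.le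
      _ = 1 / M := by
          rw [← Real.rpow_mul (by positivity), one_div_mul_cancel hβpos.ne', Real.rpow_one]
  refine ⟨δ, hδpos, min_le_left _ _, ?_⟩
  have e1 : ((4 * δ ^ 3) ^ (1 / 2 : ℝ)) ^ α = (4 : ℝ) ^ (α / 2) * (δ ^ (1 / 2 : ℝ) * δ ^ β) := by
    rw [← Real.rpow_mul (by positivity), Real.mul_rpow (by norm_num) (by positivity),
      ← Real.rpow_natCast δ 3, ← Real.rpow_mul hδpos.le, ← Real.rpow_add hδpos]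
    congr 2
    · ring
    · rw [hβ]; push_cast; ring
  have e2 : (δ / 8) ^ (1 / 2 : ℝ) = δ ^ (1 / 2 : ℝ) / (8 : ℝ) ^ (1 / 2 : ℝ) :=
    Real.div_rpow hδpos.le (by norm_num) _
  rw [e1, e2, lt_div_iff₀ h8]
  have hs : 0 < δ ^ (1 / 2 : ℝ) := Real.rpow_pos_of_pos hδpos _
  have hkey : C * (4 : ℝ) ^ (α / 2) * (8 : ℝ) ^ (1 / 2 : ℝ) * δ ^ β < 1 := by
    have h1 : C * (4 : ℝ) ^ (α / 2) * (8 : ℝ) ^ (1 / 2 : ℝ) * δ ^ β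
        ≤ C * (4 : ℝ) ^ (α / 2) * (8 : ℝ) ^ (1 / 2 : ℝ) * (1 / M) := by
      gcongr
    have h2 : C * (4 : ℝ) ^ (α / 2) * (8 : ℝ) ^ (1 / 2 : ℝ) * (1 / M) < 1 := by
      rw [mul_one_div, div_lt_one hMpos, hM]
      linarith
    exact lt_of_le_of_lt h1 h2
  calc C * ((4 : ℝ) ^ (α / 2) * (δ ^ (1 / 2 : ℝ) * δ ^ β)) * (8 : ℝ) ^ (1 / 2 : ℝ)
      = δ ^ (1 / 2 : ℝ) * (C * (4 : ℝ) ^ (α / 2) * (8 : ℝ) ^ (1 / 2 : ℝ) * δ ^ β) := by ring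
    _ < δ ^ (1 / 2 : ℝ) * 1 := by gcongr
    _ = δ ^ (1 / 2 : ℝ) := mul_one _

theorem exists_delta (α : ℝ) (hα : 1 / 3 < α) (C : ℝ≥0) :
    ∃ δ : ℝ, 0 < δ ∧ δ ≤ 1 / 2 ∧
      (C : ℝ≥0∞) * (ENNReal.ofReal (4 * δ ^ 3) ^ (1 / 2 : ℝ)) ^ α
        < ENNReal.ofReal (δ / 8) ^ (1 / 2 : ℝ) := by
  obtain ⟨δ, h0, h1, h⟩ := exists_delta_real α hα C C.coe_nonneg
  refine ⟨δ, h0, h1, ?_⟩
  have p1 : 0 < 4 * δ ^ 3 := by positivity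
  have p2 : 0 < (4 * δ ^ 3) ^ (1 / 2 : ℝ) := Real.rpow_pos_of_pos p1 _
  rw [ENNReal.ofReal_rpow_of_pos p1, ENNReal.ofReal_rpow_of_pos p2,
    ENNReal.ofReal_rpow_of_pos (by positivity), ← ENNReal.ofReal_coe_nnreal,
    ← ENNReal.ofReal_mul C.coe_nonneg]
  exact (ENNReal.ofReal_lt_ofReal_iff (Real.rpow_pos_of_pos (by positivity) _)).mpr h

end Vale.Agent.P074
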