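import Vale.Agent.P074.Estimates
import Vale.Agent.P074.Numeric

open MeasureTheory Set
open scoped ENNReal NNReal

namespace Vale.Agent.P074

theorem map_halfMap_compl_ball {d : ℕ} (ρ : Measure (EuclideanSpace ℝ (Fin d)))
    (z : EuclideanSpace ℝ (Fin d)) (t : ℝ) (hz : ‖z‖ ≤ 2) :
    (Measure.map (halfMap z t) ρ) (Metric.closedBall (0 : EuclideanSpace ℝ (Fin d)) 2)ᶜ = 0 := by
  rw [Measure.map_apply (measurable_halfMap z t) Metric.isClosed_closedBall.measurableSet.compl]
  have : halfMap z t ⁻¹' (Metric.closedBall (0 : EuclideanSpace ℝ (Fin d)) 2)ᶜ = ∅ := by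
    ext x
    simp only [mem_preimage, mem_compl_iff, mem_closedBall_zero_iff, mem_empty_iff_false,
      iff_false, not_not]
    unfold halfMap
    split_ifs
    · exact hz
    · simp
  rw [this, measure_empty]

/-- No exponent above `1/3` is admissible, in any dimension `d ≥ 2`. -/
theorem not_admissible (d : ℕ) (hd : 2 ≤ d) (α : ℝ) (hα : 1 / 3 < α) : ¬ Admissible d α := by
  obtain ⟨n, rfl⟩ : ∃ n, d = n + 2 := ⟨d - 2, by omega⟩
  intro h
  obtain ⟨C, hC⟩ := h (cube (n + 2)) (isCompact_cube _) (convex_cube _) (interior_cube_nonempty _)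
    (Metric.closedBall 0 2) (isCompact_closedBall 0 2) ⟨0, by simp⟩
  obtain ⟨δ, h0, h1, hδ⟩ := exists_delta α hα C
  have habs : |δ| ≤ 1 := by rw [abs_of_pos h0]; linarith
  have habs' : |-δ| ≤ 1 := by rw [abs_neg]; exact habs
  have key := hC (Measure.map (halfMap (zpt n (-δ)) (1 - δ)) (unif (cube (n + 2))))
    (Measure.map (halfMap (zpt n δ) (1 - δ)) (unif (cube (n + 2))))
    (Measure.isProbabilityMeasure_map (measurable_halfMap _ _).aemeasurable)
    (Measure.isProbabilityMeasure_map (measurable_halfMap _ _).aemeasurable)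
    (map_halfMap_compl_ball _ _ _ (norm_zpt_le n _ habs'))
    (map_halfMap_compl_ball _ _ _ (norm_zpt_le n _ habs))
    (halfMap (zpt n (-δ)) (1 - δ)) (halfMap (zpt n δ) (1 - δ))
    (isOTMap_halfMap _ _ (zpt_ne_zero n _) _) (isOTMap_halfMap _ _ (zpt_ne_zero n _) _)
  have hα0 : 0 ≤ α := by linarith
  have h2 := ENNReal.rpow_le_rpow (W2_example_le n δ h0 h1) hα0
  have h3 := L2dist_example_ge n δ h0 h1
  have h4 : ENNReal.ofReal (δ / 8) ^ (1 / 2 : ℝ)
      ≤ (C : ℝ≥0∞) * (ENNReal.ofReal (4 * δ ^ 3) ^ (1 / 2 : ℝ)) ^ α :=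
    h3.trans (key.trans (mul_le_mul_right h2 _))
  exact absurd hδ (not_lt.mpr h4)

end Vale.Agent.P074
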